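/-
helper42 -- S0356 squad (track D), leaf S1 (Body), hedge copy: compactness / convexity of the
corner simplex, its facets and sweeps.  Same names and signatures as in
`Crest.Agent.Helper28.S0356.Blueprint`.
-/
import Crest.Agent.Helper28.S0356.Defs

set_option autoImplicit false
open MeasureTheory
open scoped ENNReal Pointwise

namespace Crest.Agent.Helper42.S0356

open Crest.Agent.Helper28.S0355 (sweep Z)
open Crest.Agent.Helper28.S0356

theorem isClosed_Tset (ι : Type) [Fintype ι] : IsClosed (Tset ι) := by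
  have h : Tset ι = (⋂ i, {x : ι → ℝ | 0 ≤ x i}) ∩ {x : ι → ℝ | ∑ i, x i ≤ 1} := by
    ext x
    simp [Tset]
  rw [h]
  refine IsClosed.inter (isClosed_iInter fun i => ?_) ?_
  · exact isClosed_le continuous_const (continuous_apply i)
  · exact isClosed_le (continuous_finsetSum _ fun i _ => continuous_apply i) continuous_const

theorem isCompact_Tset (ι : Type) [Fintype ι] : IsCompact (Tset ι) := by
  refine (isCompact_Icc (a := (0 : ι → ℝ)) (b := 1)).of_isClosed_subset (isClosed_Tset ι) ?_
  intro x hx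
  refine ⟨fun i => hx.1 i, fun i => ?_⟩
  have h1 : x i ≤ ∑ j, x j :=
    Finset.single_le_sum (f := fun j => x j) (fun j _ => hx.1 j) (Finset.mem_univ i)
  exact h1.trans hx.2

theorem convex_Tset (ι : Type) [Fintype ι] : Convex ℝ (Tset ι) := by
  intro x hx y hy s t hs ht hst
  refine ⟨fun i => ?_, ?_⟩
  · simp only [Pi.add_apply, Pi.smul_apply, smul_eq_mul]
    have h1 := hx.1 i
    have h2 := hy.1 i
    positivity
  · simp only [Pi.add_apply, Pi.smul_apply, smul_eq_mul, Finset.sum_add_distrib,
      ← Finset.mul_sum]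
    calc s * ∑ i, x i + t * ∑ i, y i ≤ s * 1 + t * 1 :=
          add_le_add (mul_le_mul_of_nonneg_left hx.2 hs) (mul_le_mul_of_nonneg_left hy.2 ht)
      _ = 1 := by rw [mul_one, mul_one, hst]

theorem continuous_lcS {n : ℕ} (k : Fin n ⊕ Unit) : Continuous (lcS k) := by
  rcases k with j | b
  · exact (continuous_apply j).neg
  · exact continuous_finsetSum _ fun i _ => continuous_apply i

theorem isCompact_facetS {n : ℕ} (k : Fin n ⊕ Unit) : IsCompact (facetS k) := by
  have h : facetS k = Tset (Fin n) ∩ {x : Fin n → ℝ | lcS k x = bcS k} := rfl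
  rw [h]
  exact (isCompact_Tset (Fin n)).inter_right (isClosed_eq (continuous_lcS k) continuous_const)

/-- `sweep C u` is the image of `C × [0,1]` under `(z, t) ↦ z + t • u`. -/
theorem isCompact_sweep {V : Type*} [NormedAddCommGroup V] [NormedSpace ℝ V] {C : Set V}
    (hC : IsCompact C) (u : V) : IsCompact (sweep C u) := by
  have himg : sweep C u = (fun p : V × ℝ => p.1 + p.2 • u) '' (C ×ˢ Set.Icc (0 : ℝ) 1) := by
    ext x
    constructor
    · rintro ⟨t, ht, hx⟩
      exact ⟨(x - t • u, t), ⟨hx, ht⟩, by simp⟩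
    · rintro ⟨⟨z, t⟩, ⟨hz, ht⟩, rfl⟩
      exact ⟨t, ht, by simpa using hz⟩
  rw [himg]
  exact (hC.prod isCompact_Icc).image (by fun_prop)

end Crest.Agent.Helper42.S0356
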