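/-
helper42 -- S0356 squad (track D), leaf S3 (Null_n): hyperplanes are Lebesgue null in `Fin n → ℝ`.
Same names and signatures as `Crest.Agent.Helper28.S0356.Blueprint.volume_lcS_eq` and
`volume_lcS_pair`.
-/
import Crest.Agent.Helper28.S0356.Defs

set_option autoImplicit false
open MeasureTheory
open scoped ENNReal Pointwise

namespace Crest.Agent.Helper42.S0356

open Crest.Agent.Helper28.S0355 (sweep Z)
open Crest.Agent.Helper28.S0356

/-- A level set of a nonzero linear functional on `Fin n → ℝ` is Lebesgue null. -/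
theorem volume_levelSet_gen {n : ℕ} (f : (Fin n → ℝ) →ₗ[ℝ] ℝ) (c : ℝ) (v : Fin n → ℝ)
    (hv : f v ≠ 0) : volume {x : Fin n → ℝ | f x = c} = 0 := by
  have hker : LinearMap.ker f ≠ ⊤ := by
    intro h
    apply hv
    have : v ∈ LinearMap.ker f := by rw [h]; trivial
    simpa using this
  have h0 : volume (LinearMap.ker f : Set (Fin n → ℝ)) = 0 :=
    Measure.addHaar_submodule volume _ hker
  set x₀ : Fin n → ℝ := (c / f v) • v with hx₀
  have hfx₀ : f x₀ = c := by
    rw [hx₀, map_smul, smul_eq_mul, div_mul_cancel₀ _ hv]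
  have hset : {x : Fin n → ℝ | f x = c} =
      (fun h => h + (-x₀)) ⁻¹' (LinearMap.ker f : Set (Fin n → ℝ)) := by
    ext x
    simp only [Set.mem_ofPred_eq, Set.mem_preimage, SetLike.mem_coe, LinearMap.mem_ker, map_add,
      map_neg, hfx₀]
    constructor
    · intro h; rw [h]; ring
    · intro h; linarith
  rw [hset, measure_preimage_add_right]
  exact h0

/-- `lcS k` as a linear map. -/
def lcSL {n : ℕ} (k : Fin n ⊕ Unit) : (Fin n → ℝ) →ₗ[ℝ] ℝ where
  toFun := lcS k
  map_add' x y := by
    rcases k with j | b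
    · simp only [lcS, Pi.add_apply]; ring
    · simp only [lcS, Pi.add_apply, Finset.sum_add_distrib]
  map_smul' t x := by
    rcases k with j | b
    · simp only [lcS, Pi.smul_apply, smul_eq_mul, RingHom.id_apply]; ring
    · simp only [lcS, Pi.smul_apply, smul_eq_mul, RingHom.id_apply, Finset.mul_sum]

@[simp] theorem lcSL_apply {n : ℕ} (k : Fin n ⊕ Unit) (x : Fin n → ℝ) : lcSL k x = lcS k x := rfl

theorem lcS_inl_single {n : ℕ} (i m : Fin n) :
    lcS (Sum.inl i) (Pi.single m (1 : ℝ)) = if i = m then -1 else 0 := by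
  simp only [lcS, Pi.single_apply]
  split_ifs <;> simp

theorem lcS_inr_single {n : ℕ} (b : Unit) (m : Fin n) :
    lcS (Sum.inr b) (Pi.single m (1 : ℝ)) = 1 := by
  simp only [lcS, Finset.sum_pi_single', Finset.mem_univ, if_true]

/-- If every index equals `i`, the coordinate sum is the `i`-th coordinate. -/
theorem sum_eq_of_forall_eq {n : ℕ} (i : Fin n) (h : ∀ m : Fin n, m = i) (u : Fin n → ℝ) :
    ∑ m, u m = u i :=
  Finset.sum_eq_single i (fun m _ hm => absurd (h m) hm) (fun hi => absurd (Finset.mem_univ i) hi)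

theorem volume_lcS_eq {n : ℕ} (k : Fin n ⊕ Unit) :
    volume {x : Fin n → ℝ | lcS k x = bcS k} = 0 := by
  rcases k with j | b
  · refine volume_levelSet_gen (lcSL (Sum.inl j)) _ (Pi.single j 1) ?_
    rw [lcSL_apply, lcS_inl_single]; simp
  · by_cases hn : Nonempty (Fin n)
    · obtain ⟨m⟩ := hn
      refine volume_levelSet_gen (lcSL (Sum.inr b)) _ (Pi.single m 1) ?_
      rw [lcSL_apply, lcS_inr_single]; simp
    · have hempty : {x : Fin n → ℝ | lcS (Sum.inr b) x = bcS (Sum.inr b : Fin n ⊕ Unit)} = ∅ := by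
        ext x
        simp only [Set.mem_ofPred_eq, Set.mem_empty_iff_false, iff_false, lcS, bcS]
        haveI : IsEmpty (Fin n) := not_nonempty_iff.mp hn
        simp
      rw [hempty, measure_empty]

/-- For `k ≠ k'` with `lcS k u > 0`, `lcS k' u > 0` there is a vector killed by `lcS k` but not by
`lcS k'` (for `n = 1` the sign hypotheses are contradictory). -/
theorem exists_sepS {n : ℕ} (u : Fin n → ℝ) (k k' : Fin n ⊕ Unit) (hne : k ≠ k')
    (hk : 0 < lcS k u) (hk' : 0 < lcS k' u) :
    ∃ v : Fin n → ℝ, lcS k v = 0 ∧ lcS k' v ≠ 0 := by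
  rcases k with i | b <;> rcases k' with j | b'
  · -- inl i, inl j
    have hij : i ≠ j := fun h => hne (by rw [h])
    refine ⟨Pi.single j 1, ?_, ?_⟩
    · rw [lcS_inl_single, if_neg hij]
    · rw [lcS_inl_single, if_pos rfl]; norm_num
  · -- inl i, inr b'
    by_cases hm : ∃ m : Fin n, m ≠ i
    · obtain ⟨m, hm⟩ := hm
      refine ⟨Pi.single m 1, ?_, ?_⟩
      · rw [lcS_inl_single, if_neg (Ne.symm hm)]
      · rw [lcS_inr_single]; norm_num
    · exfalso
      have hall : ∀ m : Fin n, m = i := by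
        intro m
        by_contra hmi
        exact hm ⟨m, hmi⟩
      have h1 : lcS (Sum.inr b') u = u i := sum_eq_of_forall_eq i hall u
      have h2 : lcS (Sum.inl i) u = - u i := rfl
      rw [h1] at hk'
      rw [h2] at hk
      linarith
  · -- inr b, inl j
    by_cases hm : ∃ m : Fin n, m ≠ j
    · obtain ⟨m, hm⟩ := hm
      refine ⟨Pi.single j 1 - Pi.single m 1, ?_, ?_⟩
      · rw [← lcSL_apply, map_sub, lcSL_apply, lcSL_apply, lcS_inr_single, lcS_inr_single]; simp
      · rw [← lcSL_apply, map_sub, lcSL_apply, lcSL_apply, lcS_inl_single, lcS_inl_single,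
          if_pos rfl, if_neg (Ne.symm hm)]; norm_num
    · exfalso
      have hall : ∀ m : Fin n, m = j := by
        intro m
        by_contra hmj
        exact hm ⟨m, hmj⟩
      have h1 : lcS (Sum.inr b) u = u j := sum_eq_of_forall_eq j hall u
      have h2 : lcS (Sum.inl j) u = - u j := rfl
      rw [h1] at hk
      rw [h2] at hk'
      linarith
  · -- inr b, inr b'
    exact absurd rfl hne

theorem volume_lcS_pair {n : ℕ} (u : Fin n → ℝ) (k k' : Fin n ⊕ Unit) (hne : k ≠ k')
    (hk : 0 < lcS k u) (hk' : 0 < lcS k' u) :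
    volume {x : Fin n → ℝ |
      lcS k' u * lcS k x - lcS k u * lcS k' x = lcS k' u * bcS k - lcS k u * bcS k'} = 0 := by
  obtain ⟨v, hv0, hv1⟩ := exists_sepS u k k' hne hk hk'
  have h := volume_levelSet_gen (lcS k' u • lcSL k - lcS k u • lcSL k')
    (lcS k' u * bcS k - lcS k u * bcS k') v
    (by
      simp only [LinearMap.sub_apply, LinearMap.smul_apply, lcSL_apply, smul_eq_mul, hv0, mul_zero,
        zero_sub, neg_ne_zero]
      exact mul_ne_zero hk.ne' hv1)
  simpa only [LinearMap.sub_apply, LinearMap.smul_apply, lcSL_apply, smul_eq_mul] using h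

end Crest.Agent.Helper42.S0356
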