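/-
helper42 -- S0356 squad (track D), leaf AR (arithmetic): `arith_final`.
Same name and signature as `Crest.Agent.Helper28.S0356.Blueprint.arith_final`.
-/
import Crest.Agent.Helper28.S0356.Defs

set_option autoImplicit false
open MeasureTheory
open scoped ENNReal Pointwise

namespace Crest.Agent.Helper42.S0356

open Crest.Agent.Helper28.S0355 (sweep Z)
open Crest.Agent.Helper28.S0356

/-- `(n + 1) · 9700 ≤ 1.01 ^ n` for `n ≥ 10^9` (Bernoulli on `1.01 ^ (n / 2)`, squared). -/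
theorem linear_le_pow (n : ℕ) (hN : 1000000000 ≤ n) :
    ((n : ℝ) + 1) * 9700 ≤ (1.01 : ℝ) ^ n := by
  have hm2 : n / 2 * 2 ≤ n := Nat.div_mul_le_self n 2
  have hmn : n ≤ 2 * (n / 2) + 1 := by omega
  have hb : (1 : ℝ) + ((n / 2 : ℕ) : ℝ) * 0.01 ≤ (1.01 : ℝ) ^ (n / 2) := by
    have h := one_add_mul_le_pow (show (-2 : ℝ) ≤ 0.01 by norm_num) (n / 2)
    have h101 : (1 : ℝ) + 0.01 = 1.01 := by norm_num
    rw [h101] at h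
    exact h
  have hsq : ((1 : ℝ) + ((n / 2 : ℕ) : ℝ) * 0.01) ^ 2 ≤ (1.01 : ℝ) ^ n := by
    calc ((1 : ℝ) + ((n / 2 : ℕ) : ℝ) * 0.01) ^ 2 ≤ ((1.01 : ℝ) ^ (n / 2)) ^ 2 :=
          pow_le_pow_left₀ (by positivity) hb 2
      _ = (1.01 : ℝ) ^ (n / 2 * 2) := by rw [pow_mul]
      _ ≤ (1.01 : ℝ) ^ n := pow_le_pow_right₀ (by norm_num) hm2
  have hnR : (1000000000 : ℝ) ≤ (n : ℝ) := by exact_mod_cast hN
  have hmR : (n : ℝ) ≤ 2 * ((n / 2 : ℕ) : ℝ) + 1 := by exact_mod_cast hmn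
  have hm0 : (0 : ℝ) ≤ ((n / 2 : ℕ) : ℝ) := Nat.cast_nonneg _
  have hfin : ((n : ℝ) + 1) * 9700 ≤ ((1 : ℝ) + ((n / 2 : ℕ) : ℝ) * 0.01) ^ 2 := by
    nlinarith
  exact hfin.trans hsq

theorem arith_final :
    ∃ N : ℕ, 20 ≤ N ∧ ∀ k r : ℕ, r < 10 → N ≤ 10 * k + r →
      (1.01 : ℝ) ^ (10 * k + r) *
          ((((10 * k + r : ℕ) : ℝ) + 1) * ((10 * k + r : ℕ) : ℝ) ^ (10 * k + r) /
            ((10 * k + r).factorial : ℝ)) ≤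
        (11 * 10 ^ 10 / (Nat.factorial 10 : ℝ)) ^ k * 2 ^ r := by
  refine ⟨1000000000, by norm_num, ?_⟩
  intro k r hr hN
  generalize hn : 10 * k + r = n at hN ⊢
  have hA1 : (1 : ℝ) ≤ 2.7183 * 1.01 * 1.01 := by norm_num
  have hA0 : (0 : ℝ) < 2.7183 * 1.01 * 1.01 := by norm_num
  have hB : ((2.7183 : ℝ) * 1.01 * 1.01) ^ 10 ≤ 11 * 10 ^ 10 / (Nat.factorial 10 : ℝ) := by
    norm_num [Nat.factorial]
  have hA9 : ((2.7183 : ℝ) * 1.01 * 1.01) ^ 9 ≤ 9700 := by norm_num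
  have hB0 : (0 : ℝ) ≤ 11 * 10 ^ 10 / (Nat.factorial 10 : ℝ) := by positivity
  -- `n^n / n! ≤ 2.7183^n`
  have h1 : (n : ℝ) ^ n / (n.factorial : ℝ) ≤ (2.7183 : ℝ) ^ n := by
    have h := Real.pow_div_factorial_le_exp (x := (n : ℝ)) (Nat.cast_nonneg n) n
    have h2 : Real.exp (n : ℝ) = Real.exp 1 ^ n := by
      rw [← Real.exp_nat_mul, mul_one]
    rw [h2] at h
    have hE1 : Real.exp 1 ≤ 2.7183 := by
      have := Real.exp_one_lt_d9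
      linarith
    exact h.trans (pow_le_pow_left₀ (Real.exp_pos 1).le hE1 n)
  -- `A^n ≤ B^k * A^9`
  have h2 : ((2.7183 : ℝ) * 1.01 * 1.01) ^ n ≤
      (11 * 10 ^ 10 / (Nat.factorial 10 : ℝ)) ^ k * ((2.7183 : ℝ) * 1.01 * 1.01) ^ 9 := by
    have hsplit : ((2.7183 : ℝ) * 1.01 * 1.01) ^ n =
        (((2.7183 : ℝ) * 1.01 * 1.01) ^ 10) ^ k * ((2.7183 : ℝ) * 1.01 * 1.01) ^ r := by
      rw [← hn, pow_add, pow_mul]
    rw [hsplit]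
    have hr9 : ((2.7183 : ℝ) * 1.01 * 1.01) ^ r ≤ ((2.7183 : ℝ) * 1.01 * 1.01) ^ 9 :=
      pow_le_pow_right₀ hA1 (by omega)
    have hk : (((2.7183 : ℝ) * 1.01 * 1.01) ^ 10) ^ k ≤
        (11 * 10 ^ 10 / (Nat.factorial 10 : ℝ)) ^ k :=
      pow_le_pow_left₀ (by positivity) hB k
    exact mul_le_mul hk hr9 (by positivity) (by positivity)
  -- `(n+1) * A^9 ≤ 1.01^n`
  have h3 : ((n : ℝ) + 1) * ((2.7183 : ℝ) * 1.01 * 1.01) ^ 9 ≤ (1.01 : ℝ) ^ n := by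
    have hn0 : (0 : ℝ) ≤ (n : ℝ) + 1 := by positivity
    exact (mul_le_mul_of_nonneg_left hA9 hn0).trans (linear_le_pow n hN)
  -- assemble
  have hpow : ((2.7183 : ℝ) * 1.01 * 1.01) ^ n = (2.7183 : ℝ) ^ n * (1.01 : ℝ) ^ n * (1.01 : ℝ) ^ n := by
    rw [mul_pow, mul_pow]
  have hE0 : (0 : ℝ) ≤ (2.7183 : ℝ) ^ n := by positivity
  have hP0 : (0 : ℝ) ≤ (1.01 : ℝ) ^ n := by positivity
  have hn0 : (0 : ℝ) ≤ (n : ℝ) + 1 := by positivity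
  have key : (1.01 : ℝ) ^ n * (((n : ℝ) + 1) * (2.7183 : ℝ) ^ n) *
      ((2.7183 : ℝ) * 1.01 * 1.01) ^ 9 ≤
      (11 * 10 ^ 10 / (Nat.factorial 10 : ℝ)) ^ k * ((2.7183 : ℝ) * 1.01 * 1.01) ^ 9 := by
    calc (1.01 : ℝ) ^ n * (((n : ℝ) + 1) * (2.7183 : ℝ) ^ n) * ((2.7183 : ℝ) * 1.01 * 1.01) ^ 9
        = (2.7183 : ℝ) ^ n * (1.01 : ℝ) ^ n *
            (((n : ℝ) + 1) * ((2.7183 : ℝ) * 1.01 * 1.01) ^ 9) := by ring
      _ ≤ (2.7183 : ℝ) ^ n * (1.01 : ℝ) ^ n * (1.01 : ℝ) ^ n :=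
          mul_le_mul_of_nonneg_left h3 (by positivity)
      _ = ((2.7183 : ℝ) * 1.01 * 1.01) ^ n := hpow.symm
      _ ≤ _ := h2
  have key2 : (1.01 : ℝ) ^ n * (((n : ℝ) + 1) * (2.7183 : ℝ) ^ n) ≤
      (11 * 10 ^ 10 / (Nat.factorial 10 : ℝ)) ^ k :=
    le_of_mul_le_mul_right key (by positivity)
  have hlhs : (1.01 : ℝ) ^ n * (((n : ℝ) + 1) * (n : ℝ) ^ n / (n.factorial : ℝ)) ≤
      (1.01 : ℝ) ^ n * (((n : ℝ) + 1) * (2.7183 : ℝ) ^ n) := by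
    rw [mul_div_assoc]
    exact mul_le_mul_of_nonneg_left (mul_le_mul_of_nonneg_left h1 hn0) hP0
  have h2r : (1 : ℝ) ≤ 2 ^ r := one_le_pow₀ (by norm_num)
  calc (1.01 : ℝ) ^ n * (((n : ℝ) + 1) * (n : ℝ) ^ n / (n.factorial : ℝ))
      ≤ (1.01 : ℝ) ^ n * (((n : ℝ) + 1) * (2.7183 : ℝ) ^ n) := hlhs
    _ ≤ (11 * 10 ^ 10 / (Nat.factorial 10 : ℝ)) ^ k := key2
    _ ≤ (11 * 10 ^ 10 / (Nat.factorial 10 : ℝ)) ^ k * 2 ^ r :=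
        le_mul_of_one_le_right (by positivity) h2r

end Crest.Agent.Helper42.S0356
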